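import Vale.Agent.P028.VFinal

/-- Q1 (weak inhomogeneous Duffin-Schaeffer) for every real shift `γ`, Liouville numbers included,
for every non-negative `ψ` with `ψ q = O (1 / q)`: no monotonicity is assumed. -/
theorem Vale.Agent.Results.P028.AVaalerRange.result
    (γ : ℝ) (ψ : ℕ → ℝ) (C : ℝ) (h0 : ∀ q, 0 ≤ ψ q)
    (hcap : ∀ᶠ q : ℕ in Filter.atTop, ψ q ≤ C / (q : ℝ))
    (hdiv : ¬ Summable fun q : ℕ => (Nat.totient q : ℝ) / q * ψ q) :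
    ∀ᵐ x : ℝ, ∃ᶠ q : ℕ in Filter.atTop, ∃ a : ℤ, |(q : ℝ) * x - a - γ| < ψ q :=
  Vale.Agent.P028.vaaler_range γ ψ C h0 hcap hdiv
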