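import Vale.Agent.P028.Final

/-- Q1 (weak inhomogeneous Duffin-Schaeffer), even with moving shifts, for `ψ` supported on integers
with a bounded number of divisors. -/
theorem Vale.Agent.Results.P028.BoundedDivisors.result
    (K : ℕ) (ψ : ℕ → ℝ) (h0 : ∀ q, 0 ≤ ψ q)
    (hsupp : ∀ q, ψ q ≠ 0 → (Nat.divisors q).card ≤ K)
    (hdiv : ¬ Summable fun q : ℕ => (Nat.totient q : ℝ) / q * ψ q)
    (γ : ℕ → ℝ) :
    ∀ᵐ x : ℝ, ∃ᶠ q : ℕ in Filter.atTop, ∃ a : ℤ, |(q : ℝ) * x - a - γ q| < ψ q :=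
  Vale.Agent.P028.ae_of_bounded_divisors K γ ψ h0 hsupp
    (Vale.Agent.P028.not_summable_of_not_summable_totient ψ h0 hdiv)
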