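import Vale.Agent.P028.Final

/-- Full measure, for arbitrary moving shifts, whenever the partial sums of `ψ` diverge and control
the divisor-weighted partial sums along a sequence of scales. -/
theorem Vale.Agent.Results.P028.DivisorMean.result
    (ψ : ℕ → ℝ) (h0 : ∀ q, 0 ≤ ψ q) (hdiv : ¬ Summable ψ) (C : ℝ)
    (hτ : ∀ M : ℕ, ∃ X : ℕ, M ≤ X ∧
      ∑ q ∈ Finset.Icc 1 X, ((Nat.divisors q).card : ℝ) * ψ q ≤
        C * (∑ q ∈ Finset.Icc 1 X, ψ q) ^ 2)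
    (γ : ℕ → ℝ) :
    ∀ᵐ x : ℝ, ∃ᶠ q : ℕ in Filter.atTop, ∃ a : ℤ, |(q : ℝ) * x - a - γ q| < ψ q :=
  Vale.Agent.P028.ae_of_divisor_sum γ ψ h0 hdiv C hτ
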